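import Vale.Agent.Lib.P195.Core

/-!
Normal extensions of rings and the little finitistic dimension.

Let `ι : U → R` be a ring homomorphism such that `R` is a finitely generated projective left
`U`-module and such that the right ideal `I = ι(J_U) R` is two-sided. A module of finite projective
dimension over `R` restricts to a module of finite projective dimension over `U`, so its
`findim U`-th syzygy is projective over `U`. Reduction modulo `I` is exact on modules which are
projective over `U`, and it preserves minimal projective resolutions.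
-/

set_option linter.style.haveILetI false
set_option linter.unusedVariables false
set_option linter.unusedSectionVars false

open CategoryTheory Abelian

namespace Vale.Agent.Lib.P176

open Vale.Agent.Lib.P195

universe u

/-- The little finitistic dimension of `A` is at most `n`: every finitely generated left
`A`-module of finite projective dimension has projective dimension at most `n`. -/
def FindimLE (A : Type u) [Ring A] (n : ℕ) : Prop :=
  ∀ M : ModuleCat.{u} A, Module.Finite A M → (∃ N : ℕ, HasProjectiveDimensionLT M N) →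
    HasProjectiveDimensionLT M (n + 1)

section Seq

variable {A : Type u} [Ring A]

/-- A projective resolution given as a sequence of short exact sequences. -/
structure PRes (A : Type u) [Ring A] where
  X : ℕ → ModuleCat.{u} A
  P : ℕ → ModuleCat.{u} A
  ι : ∀ i, X (i + 1) ⟶ P i
  π : ∀ i, P i ⟶ X i
  w : ∀ i, ι i ≫ π i = 0
  sexact : ∀ i, (ShortComplex.mk (ι i) (π i) (w i)).ShortExact
  proj : ∀ i, Projective (P i)

lemma PRes.lt_up (s : PRes A) (n : ℕ) (i : ℕ) (h : HasProjectiveDimensionLT (s.X (i + n)) 1) :
    HasProjectiveDimensionLT (s.X i) (n + 1) := by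
  induction n generalizing i with
  | zero => simpa using h
  | succ n ih =>
    have h' : HasProjectiveDimensionLT (s.X (i + 1 + n)) 1 := by
      have e : i + 1 + n = i + (n + 1) := by omega
      rw [e]; exact h
    have h1 := ih (i + 1) h'
    haveI := s.proj i
    have h2 : HasProjectiveDimensionLT (s.P i) (n + 1 + 1) :=
      hasProjectiveDimensionLT_of_ge _ 1 _ (by omega)
    exact (s.sexact i).hasProjectiveDimensionLT_X₃ (n + 1) h1 h2

lemma PRes.lt_down (s : PRes A) (n : ℕ) (i : ℕ) (h : HasProjectiveDimensionLT (s.X i) (n + 1)) :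
    HasProjectiveDimensionLT (s.X (i + n)) 1 := by
  induction n generalizing i with
  | zero => simpa using h
  | succ n ih =>
    haveI := s.proj i
    have h2 : HasProjectiveDimensionLT (s.P i) (n + 1) :=
      hasProjectiveDimensionLT_of_ge _ 1 _ (by omega)
    have h1 : HasProjectiveDimensionLT (s.X (i + 1)) (n + 1) :=
      (s.sexact i).hasProjectiveDimensionLT_X₁ (n + 1) h2 h
    have h3 := ih (i + 1) h1
    have e : i + (n + 1) = i + 1 + n := by omega
    rw [e]; exact h3

lemma hasPD_one_of_subsingleton (X : ModuleCat.{u} A) [Subsingleton X] :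
    HasProjectiveDimensionLT X 1 := by
  have hz : Limits.IsZero X := ModuleCat.isZero_of_subsingleton X
  haveI := hz.hasProjectiveDimensionLT_zero
  exact hasProjectiveDimensionLT_of_ge _ 0 _ (by omega)

lemma shortExact_of_functions {X Y Z : ModuleCat.{u} A} (f : X ⟶ Y) (g : Y ⟶ Z) (w : f ≫ g = 0)
    (hf : Function.Injective f.hom) (hg : Function.Surjective g.hom)
    (hfg : Function.Exact f.hom g.hom) : (ShortComplex.mk f g w).ShortExact where
  exact := (ShortComplex.ShortExact.moduleCat_exact_iff_function_exact _).2 hfg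
  mono_f := (ModuleCat.mono_iff_injective _).2 hf
  epi_g := (ModuleCat.epi_iff_surjective _).2 hg

/-- The resolution underlying a minimal resolution. -/
def _root_.Vale.Agent.Lib.P195.Syz.toPRes (s : Syz A) : PRes A where
  X := s.X
  P := s.P
  ι := s.ι
  π := s.π
  w := s.w
  sexact := s.sexact
  proj := fun i => inferInstance

/-- If a term of a minimal resolution is projective, the next one vanishes. -/
lemma next_subsingleton (s : Syz A) (i : ℕ) [Module.Projective A (s.X i)] :
    Subsingleton (s.X (i + 1)) := by
  obtain ⟨τ, hτ⟩ := Module.projective_lifting_property (s.π i).hom LinearMap.id (s.π_surjective i)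
  -- the retraction
  have hex := s.exact_ι_π i
  have hker : ∀ p : s.P i, ∃ y, (s.ι i).hom y = p - τ ((s.π i).hom p) := by
    intro p
    have h0 : (s.π i).hom (p - τ ((s.π i).hom p)) = 0 := by
      have h1 : (s.π i).hom (τ ((s.π i).hom p)) = (s.π i).hom p := LinearMap.congr_fun hτ _
      rw [map_sub, h1, sub_self]
    exact (hex _).mp h0
  choose ρ hρ using hker
  have hinj := s.ι_injective i
  let r : s.P i →ₗ[A] s.X (i + 1) :=
    { toFun := ρ
      map_add' := fun a b => by
        apply hinj
        rw [map_add, hρ, hρ, hρ, map_add, map_add]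
        abel
      map_smul' := fun c a => by
        apply hinj
        simp only [RingHom.id_apply, map_smul, hρ]
        rw [smul_sub] }
  have hr : ∀ y, r ((s.ι i).hom y) = y := by
    intro y
    apply hinj
    change (s.ι i).hom (ρ _) = _
    rw [hρ]
    have h0 : (s.π i).hom ((s.ι i).hom y) = 0 := (hex _).mpr ⟨y, rfl⟩
    rw [h0, map_zero, sub_zero]
  have htop : (⊤ : Submodule A (s.X (i + 1))) ≤ rad A (s.X (i + 1)) := by
    intro x _
    rw [← hr x]
    exact map_mem_rad r (s.minimal i (LinearMap.mem_range_self _ x))
  have hbot : (⊤ : Submodule A (s.X (i + 1))) = ⊥ :=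
    Submodule.FG.eq_bot_of_le_jacobson_smul Module.Finite.fg_top htop
  exact (Submodule.subsingleton_iff A).mp (subsingleton_of_bot_eq_top hbot.symm)

end Seq

section Restrict

variable {U R : Type u} [Ring U] [Ring R] (ι : U →+* R)

/-- The restriction of scalars. -/
noncomputable abbrev res (N : ModuleCat.{u} R) : ModuleCat.{u} U := (ModuleCat.restrictScalars ι).obj N

lemma res_smul (N : ModuleCat.{u} R) (u : U) (x : N) :
    (u • (show res ι N from x) : res ι N) = ι u • x := rfl

/-- A finite projective module restricts to a projective module. -/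
lemma res_projective (hR : Module.Projective U (res ι (ModuleCat.of R R)))
    (P : ModuleCat.{u} R) [Module.Finite R P] [Module.Projective R P] :
    Module.Projective U (res ι P) := by
  obtain ⟨m, f, hf⟩ := Module.Finite.exists_fin' R P
  obtain ⟨s, hs⟩ := Module.projective_lifting_property f LinearMap.id hf
  let F := Fin m → res ι (ModuleCat.of R R)
  let a : F →ₗ[U] res ι P :=
    { toFun := fun v => f v
      map_add' := fun v w => map_add f v w
      map_smul' := fun c v => map_smul f (ι c) v }
  let b : res ι P →ₗ[U] F :=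
    { toFun := fun p => s p
      map_add' := fun v w => map_add s v w
      map_smul' := fun c v => map_smul s (ι c) v }
  haveI : Module.Projective U F :=
    Module.Projective.of_equiv
      (DFinsupp.linearEquivFunOnFintype (R := U) (ι := Fin m) (M := fun _ => res ι (ModuleCat.of R R)))
  refine Module.Projective.of_split b a ?_
  ext p
  exact LinearMap.congr_fun hs p

/-- A finite module restricts to a finite module. -/
lemma res_finite (hR : Module.Finite U (res ι (ModuleCat.of R R)))
    (N : ModuleCat.{u} R) [Module.Finite R N] : Module.Finite U (res ι N) := by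
  obtain ⟨m, f, hf⟩ := Module.Finite.exists_fin' R N
  let F := Fin m → res ι (ModuleCat.of R R)
  let a : F →ₗ[U] res ι N :=
    { toFun := fun v => f v
      map_add' := fun v w => map_add f v w
      map_smul' := fun c v => map_smul f (ι c) v }
  exact Module.Finite.of_surjective a hf

/-- The restriction of a minimal resolution. -/
noncomputable def resPRes (hR : Module.Projective U (res ι (ModuleCat.of R R))) (s : Syz R) : PRes U where
  X := fun i => res ι (s.X i)
  P := fun i => res ι (s.P i)
  ι := fun i => (ModuleCat.restrictScalars ι).map (s.ι i)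
  π := fun i => (ModuleCat.restrictScalars ι).map (s.π i)
  w := fun i => by rw [← Functor.map_comp, s.w, Functor.map_zero]
  sexact := fun i => shortExact_of_functions _ _ _ (s.ι_injective i) (s.π_surjective i)
    (s.exact_ι_π i)
  proj := fun i => by
    haveI := res_projective ι hR (s.P i)
    exact ModuleCat.projective_of_categoryTheory_projective _

end Restrict

section Red

variable {R : Type u} [Ring R] (I : Ideal R) [I.IsTwoSided]

lemma torsion_red (N : Type u) [AddCommGroup N] [Module R N] :
    Module.IsTorsionBySet R (N ⧸ (I • (⊤ : Submodule R N))) (I : Set R) := by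
  rw [Module.isTorsionBySet_quotient_iff]
  exact fun x r hr => Submodule.smul_mem_smul hr trivial

/-- The reduction `N / I N` of a module, as a module over `R / I`. -/
noncomputable def red (N : ModuleCat.{u} R) : ModuleCat.{u} (R ⧸ I) :=
  letI := (torsion_red I N).module
  ModuleCat.of (R ⧸ I) (N ⧸ (I • (⊤ : Submodule R N)))

/-- The projection to the reduction. -/
def toRed (N : ModuleCat.{u} R) (x : N) : red I N :=
  (Submodule.Quotient.mk x : N ⧸ (I • (⊤ : Submodule R N)))

lemma toRed_surjective (N : ModuleCat.{u} R) : Function.Surjective (toRed I N) :=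
  Submodule.Quotient.mk_surjective _

lemma toRed_add (N : ModuleCat.{u} R) (x y : N) : toRed I N (x + y) = toRed I N x + toRed I N y :=
  rfl

lemma toRed_smul (N : ModuleCat.{u} R) (r : R) (x : N) :
    toRed I N (r • x) = Ideal.Quotient.mk I r • toRed I N x := by
  letI := (torsion_red I N).module
  exact (Module.IsTorsionBySet.mk_smul (torsion_red I N) r
    (Submodule.Quotient.mk x : N ⧸ (I • (⊤ : Submodule R N)))).symm

lemma toRed_eq_zero (N : ModuleCat.{u} R) (x : N) :
    toRed I N x = 0 ↔ x ∈ (I • (⊤ : Submodule R N)) :=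
  Submodule.Quotient.mk_eq_zero _

lemma toRed_sum (N : ModuleCat.{u} R) {α : Type*} (T : Finset α) (g : α → N) :
    toRed I N (∑ j ∈ T, g j) = ∑ j ∈ T, toRed I N (g j) := by
  classical
  induction T using Finset.induction_on with
  | empty => rfl
  | insert a T ha ih => rw [Finset.sum_insert ha, Finset.sum_insert ha, toRed_add, ih]

/-- The map induced on reductions, as a function. -/
def redFun {N N' : ModuleCat.{u} R} (f : N ⟶ N') : (N ⧸ (I • (⊤ : Submodule R N))) →ₗ[R]
    (N' ⧸ (I • (⊤ : Submodule R N'))) :=
  Submodule.mapQ (I • (⊤ : Submodule R N)) (I • (⊤ : Submodule R N')) f.hom (by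
    rw [Submodule.smul_le]
    intro r hr x _
    rw [Submodule.mem_comap, map_smul]
    exact Submodule.smul_mem_smul hr (Submodule.mem_top))

/-- The map induced on reductions. -/
noncomputable def redMap {N N' : ModuleCat.{u} R} (f : N ⟶ N') : red I N ⟶ red I N' :=
  ModuleCat.ofHom (X := red I N) (Y := red I N')
    ({ toFun := redFun I f
       map_add' := map_add (redFun I f)
       map_smul' := by
        intro c x
        obtain ⟨r, rfl⟩ := Ideal.Quotient.mk_surjective c
        obtain ⟨y, rfl⟩ := toRed_surjective I N x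
        rw [← toRed_smul]
        change toRed I N' (f.hom (r • y)) = Ideal.Quotient.mk I r • toRed I N' (f.hom y)
        rw [map_smul, toRed_smul] } : red I N →ₗ[R ⧸ I] red I N')

lemma redMap_toRed {N N' : ModuleCat.{u} R} (f : N ⟶ N') (x : N) :
    (redMap I f).hom (toRed I N x) = toRed I N' (f.hom x) := rfl

lemma red_hom_ext {N N' : ModuleCat.{u} R} (f g : red I N ⟶ red I N')
    (h : ∀ x, f.hom (toRed I N x) = g.hom (toRed I N x)) : f = g := by
  ext y
  obtain ⟨x, rfl⟩ := toRed_surjective I N y
  exact h x

/-- The reduction of a finite module is finite. -/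
lemma red_finite (N : ModuleCat.{u} R) [Module.Finite R N] : Module.Finite (R ⧸ I) (red I N) := by
  classical
  obtain ⟨m, f, hf⟩ := Module.Finite.exists_fin' R N
  refine ⟨⟨Finset.univ.image (fun j => toRed I N (f (Pi.single j 1))), ?_⟩⟩
  rw [eq_top_iff]
  intro y _
  obtain ⟨x, rfl⟩ := toRed_surjective I N y
  obtain ⟨v, rfl⟩ := hf x
  have hv : v = ∑ j, v j • Pi.single j (1 : R) := by
    funext i
    simp [Finset.sum_apply, Pi.single_apply]
  rw [hv]
  simp only [map_sum, map_smul]
  rw [toRed_sum]
  refine Submodule.sum_mem _ fun j _ => ?_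
  rw [toRed_smul]
  refine Submodule.smul_mem _ _ (Submodule.subset_span ?_)
  simp

/-- The reduction of a finite projective module is projective. -/
lemma red_projective (P : ModuleCat.{u} R) [Module.Projective R P] :
    Module.Projective (R ⧸ I) (red I P) := by
  refine Module.Projective.of_lifting_property ?_
  intro M N _ _ _ _ f g hf
  letI rM : Module R M := Module.compHom M (Ideal.Quotient.mk I)
  letI rN : Module R N := Module.compHom N (Ideal.Quotient.mk I)
  let f' : M →ₗ[R] N :=
    { toFun := f
      map_add' := map_add f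
      map_smul' := fun r x => map_smul f (Ideal.Quotient.mk I r) x }
  let g' : P →ₗ[R] N :=
    { toFun := fun x => g (toRed I P x)
      map_add' := fun x y => by rw [toRed_add, map_add]
      map_smul' := fun r x => by
        rw [toRed_smul, map_smul]
        rfl }
  obtain ⟨h, hh⟩ := Module.projective_lifting_property f' g' hf
  have hker : (I • (⊤ : Submodule R P)) ≤ LinearMap.ker h := by
    rw [Submodule.smul_le]
    intro r hr x _
    rw [LinearMap.mem_ker, map_smul]
    have h0 : Ideal.Quotient.mk I r = 0 := Ideal.Quotient.eq_zero_iff_mem.mpr hr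
    change Ideal.Quotient.mk I r • h x = 0
    rw [h0, zero_smul]
  let h1 := (I • (⊤ : Submodule R P)).liftQ h hker
  have h1mk : ∀ x, h1 (toRed I P x) = h x := fun x => rfl
  let h2 : red I P →ₗ[R ⧸ I] M :=
    { toFun := h1
      map_add' := map_add h1
      map_smul' := by
        intro c y
        obtain ⟨r, rfl⟩ := Ideal.Quotient.mk_surjective c
        obtain ⟨x, rfl⟩ := toRed_surjective I P y
        rw [← toRed_smul, h1mk, map_smul, h1mk]
        rfl }
  refine ⟨h2, ?_⟩
  ext y
  obtain ⟨x, rfl⟩ := toRed_surjective I P y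
  exact LinearMap.congr_fun hh x

end Red

section Main

variable {U R : Type u} [Ring U] [Ring R] (ι : U →+* R) (I : Ideal R) [I.IsTwoSided]

/-- If the quotient `X i` is projective over `U`, the reduction modulo `I` stays injective. -/
lemma mem_smul_of_split
    (hI : ∀ y, y ∈ I ↔ y ∈ AddSubgroup.closure {z : R | ∃ j ∈ Ring.jacobson U, ∃ r : R, z = ι j * r})
    (s : Syz R) (i : ℕ) (hp : Module.Projective U (res ι (s.X i))) (y : s.X (i + 1))
    (hy : (s.ι i).hom y ∈ (I • (⊤ : Submodule R (s.P i)))) :
    y ∈ (I • (⊤ : Submodule R (s.X (i + 1)))) := by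
  let πU : res ι (s.P i) →ₗ[U] res ι (s.X i) := ((ModuleCat.restrictScalars ι).map (s.π i)).hom
  have hπU : Function.Surjective πU := s.π_surjective i
  obtain ⟨τ₀, hτ₀⟩ := Module.projective_lifting_property πU LinearMap.id hπU
  let τ : s.X i → s.P i := fun x => τ₀ x
  have hτ' : ∀ x : s.X i, (s.π i).hom (τ x) = x := fun x => LinearMap.congr_fun hτ₀ x
  have hτu : ∀ (j : U) (x : s.X i), τ (ι j • x) = ι j • τ x := fun j x => τ₀.map_smul j x
  have hτa : ∀ x x' : s.X i, τ (x + x') = τ x + τ x' := fun x x' => map_add τ₀ x x'
  have hτn : ∀ x : s.X i, τ (-x) = - τ x := fun x => map_neg τ₀ x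
  have hτ0 : τ 0 = 0 := map_zero τ₀
  have hex := s.exact_ι_π i
  have hmemI : ∀ j ∈ Ring.jacobson U, ι j ∈ I := by
    intro j hj
    rw [hI]
    exact AddSubgroup.subset_closure ⟨j, hj, 1, by simp⟩
  have key : ∀ z ∈ (I • (⊤ : Submodule R (s.P i))),
      ∃ w ∈ (I • (⊤ : Submodule R (s.X (i + 1)))),
        z - τ ((s.π i).hom z) = (s.ι i).hom w := by
    intro z hz
    refine Submodule.smul_induction_on hz ?_ ?_
    · intro r hr p _
      have hr' := (hI r).mp hr
      refine AddSubgroup.closure_induction (p := fun r _ => ∃ w ∈ (I • (⊤ : Submodule R (s.X (i + 1)))),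
        r • p - τ ((s.π i).hom (r • p)) = (s.ι i).hom w) ?_ ?_ ?_ ?_ hr'
      · rintro _ ⟨j, hj, r', rfl⟩
        have h0 : (s.π i).hom (r' • p - τ ((s.π i).hom (r' • p))) = 0 := by
          rw [map_sub, hτ', sub_self]
        obtain ⟨y', hy'⟩ := (hex _).mp h0
        refine ⟨ι j • y', Submodule.smul_mem_smul (hmemI j hj) Submodule.mem_top, ?_⟩
        have e1 : (s.ι i).hom (ι j • y') = ι j • (r' • p - τ ((s.π i).hom (r' • p))) := by
          rw [map_smul, hy']
        have e2 : (s.π i).hom ((ι j * r') • p) = ι j • (s.π i).hom (r' • p) := by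
          rw [mul_smul, map_smul]
        rw [e2, hτu, e1, smul_sub, mul_smul]
      · exact ⟨0, zero_mem _, by simp [hτ0]⟩
      · rintro a b _ _ ⟨w₁, hw₁, h₁⟩ ⟨w₂, hw₂, h₂⟩
        refine ⟨w₁ + w₂, add_mem hw₁ hw₂, ?_⟩
        rw [add_smul, map_add, map_add, hτa, ← h₁, ← h₂]
        abel
      · rintro a _ ⟨w, hw, h⟩
        refine ⟨-w, neg_mem hw, ?_⟩
        rw [neg_smul, map_neg, map_neg, hτn, ← h]
        abel
    · rintro a b ⟨w₁, hw₁, h₁⟩ ⟨w₂, hw₂, h₂⟩
      refine ⟨w₁ + w₂, add_mem hw₁ hw₂, ?_⟩
      rw [map_add, map_add, hτa, ← h₁, ← h₂]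
      abel
  obtain ⟨w, hw, h⟩ := key _ hy
  have h0 : (s.π i).hom ((s.ι i).hom y) = 0 := (hex _).mpr ⟨y, rfl⟩
  rw [h0, hτ0, sub_zero] at h
  rw [s.ι_injective i h]
  exact hw

/-- Nakayama's lemma for the ideal `I`. -/
lemma subsingleton_of_red
    (hI : ∀ y, y ∈ I ↔ y ∈ AddSubgroup.closure {z : R | ∃ j ∈ Ring.jacobson U, ∃ r : R, z = ι j * r})
    (hfin : Module.Finite U (res ι (ModuleCat.of R R))) (N : ModuleCat.{u} R) [Module.Finite R N]
    (h : Subsingleton (red I N)) : Subsingleton N := by
  haveI := res_finite ι hfin N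
  let T : Submodule U (res ι N) := Ring.jacobson U • ⊤
  let c : N → res ι N := fun x => x
  have hT : ∀ (j : U) (n : N), j ∈ Ring.jacobson U → c (ι j • n) ∈ T := fun j n hj =>
    Submodule.smul_mem_smul (r := j) (n := c n) hj Submodule.mem_top
  have key : ∀ x : N, x ∈ (I • (⊤ : Submodule R N)) → c x ∈ T := by
    intro x hx
    refine Submodule.smul_induction_on hx ?_ ?_
    · intro r hr n _
      refine AddSubgroup.closure_induction
        (p := fun r _ => c (r • n) ∈ T) ?_ ?_ ?_ ?_ ((hI r).mp hr)
      · rintro _ ⟨j, hj, r', rfl⟩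
        rw [mul_smul]
        exact hT j _ hj
      · rw [zero_smul]
        exact zero_mem T
      · intro a b _ _ ha hb
        rw [add_smul]
        exact add_mem ha hb
      · intro a _ ha
        rw [neg_smul]
        exact neg_mem ha
    · intro a b ha hb
      exact add_mem ha hb
  have htop : (⊤ : Submodule U (res ι N)) ≤ T := by
    intro x _
    exact key x ((toRed_eq_zero I N x).mp (Subsingleton.elim _ _))
  have hbot : (⊤ : Submodule U (res ι N)) = ⊥ :=
    Submodule.FG.eq_bot_of_le_jacobson_smul Module.Finite.fg_top htop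
  have hsub : Subsingleton (res ι N) :=
    (Submodule.subsingleton_iff U).mp (subsingleton_of_bot_eq_top hbot.symm)
  exact hsub

/-- The reduction of the tail of a minimal resolution whose terms are projective over `U`. -/
noncomputable def redSyz
    (hI : ∀ y, y ∈ I ↔ y ∈ AddSubgroup.closure {z : R | ∃ j ∈ Ring.jacobson U, ∃ r : R, z = ι j * r})
    (s : Syz R) (t : ℕ) (hp : ∀ c, Module.Projective U (res ι (s.X (t + c)))) : Syz (R ⧸ I) where
  X := fun c => red I (s.X (t + c))
  P := fun c => red I (s.P (t + c))
  ι := fun c => redMap I (s.ι (t + c))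
  π := fun c => redMap I (s.π (t + c))
  w := fun c => by
    apply red_hom_ext
    intro x
    have h0 : (s.π (t + c)).hom ((s.ι (t + c)).hom x) = 0 :=
      (s.exact_ι_π (t + c) _).mpr ⟨x, rfl⟩
    change toRed I _ ((s.π (t + c)).hom ((s.ι (t + c)).hom x)) = 0
    rw [h0]
    rfl
  sexact := fun c => by
    refine shortExact_of_functions _ _ _ ?_ ?_ ?_
    · rw [injective_iff_map_eq_zero]
      intro y hy
      obtain ⟨x, rfl⟩ := toRed_surjective I _ y
      have h1 : toRed I (s.P (t + c)) ((s.ι (t + c)).hom x) = 0 := hy
      exact (toRed_eq_zero I _ x).mpr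
        (mem_smul_of_split ι I hI s (t + c) (hp c) x ((toRed_eq_zero I _ _).mp h1))
    · intro y
      obtain ⟨x, rfl⟩ := toRed_surjective I _ y
      obtain ⟨p, rfl⟩ := s.π_surjective (t + c) x
      exact ⟨toRed I _ p, rfl⟩
    · intro y
      obtain ⟨p, rfl⟩ := toRed_surjective I _ y
      constructor
      · intro h
        have h1 : toRed I (s.X (t + c)) ((s.π (t + c)).hom p) = 0 := h
        have h2 := (toRed_eq_zero I _ _).mp h1
        have hmap : (I • (⊤ : Submodule R (s.X (t + c)))) =
            (I • (⊤ : Submodule R (s.P (t + c)))).map (s.π (t + c)).hom := by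
          rw [Submodule.map_smul'', Submodule.map_top,
            LinearMap.range_eq_top.mpr (s.π_surjective (t + c))]
        rw [hmap] at h2
        obtain ⟨p', hp', hpp⟩ := h2
        have h0 : (s.π (t + c)).hom (p - p') = 0 := by rw [map_sub, hpp, sub_self]
        obtain ⟨x, hx⟩ := (s.exact_ι_π (t + c) _).mp h0
        refine ⟨toRed I _ x, ?_⟩
        change toRed I _ ((s.ι (t + c)).hom x) = toRed I _ p
        rw [hx]
        have h3 : toRed I _ p' = 0 := (toRed_eq_zero I _ _).mpr hp'
        have h4 : toRed I (s.P (t + c)) p = toRed I _ (p - p') + toRed I _ p' := by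
          rw [← toRed_add, sub_add_cancel]
        rw [h4, h3, add_zero]
      · rintro ⟨y, hy⟩
        obtain ⟨x, rfl⟩ := toRed_surjective I _ y
        have h0 : (s.π (t + c)).hom ((s.ι (t + c)).hom x) = 0 :=
          (s.exact_ι_π (t + c) _).mpr ⟨x, rfl⟩
        rw [← hy]
        change toRed I _ ((s.π (t + c)).hom ((s.ι (t + c)).hom x)) = 0
        rw [h0]
        rfl
  finX := fun c => red_finite I _
  finP := fun c => red_finite I _
  projP := fun c => red_projective I _
  minimal := fun c => by
    rintro _ ⟨y, rfl⟩
    obtain ⟨x, rfl⟩ := toRed_surjective I _ y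
    have hx := s.minimal (t + c) (LinearMap.mem_range_self _ x)
    change toRed I _ ((s.ι (t + c)).hom x) ∈ _
    haveI : RingHomSurjective (Ideal.Quotient.mk I) := ⟨Ideal.Quotient.mk_surjective⟩
    refine Submodule.smul_induction_on hx ?_ ?_
    · intro r hr p _
      rw [toRed_smul]
      refine Submodule.smul_mem_smul ?_ Submodule.mem_top
      exact Ring.map_jacobson_le (Ideal.Quotient.mk I) (Submodule.mem_map_of_mem hr)
    · intro a b ha hb
      rw [toRed_add]
      exact add_mem ha hb

/-- The main theorem: `findim R ≤ findim U + findim (R / I)`. -/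
theorem findim_normal [IsArtinianRing R]
    (hproj : Module.Projective U (res ι (ModuleCat.of R R)))
    (hfin : Module.Finite U (res ι (ModuleCat.of R R)))
    (hI : ∀ y, y ∈ I ↔ y ∈ AddSubgroup.closure {z : R | ∃ j ∈ Ring.jacobson U, ∃ r : R, z = ι j * r})
    (f g : ℕ) (hf : FindimLE U f) (hg : FindimLE (R ⧸ I) g) : FindimLE R (f + g) := by
  intro M hM ⟨N, hN⟩
  obtain ⟨s, rfl⟩ := exists_syz M
  -- the syzygies vanish eventually
  have hN' : HasProjectiveDimensionLT (s.X 0) (N + 1) :=
    hasProjectiveDimensionLT_of_ge _ N _ (by omega)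
  have h1 : HasProjectiveDimensionLT (s.X (0 + N)) 1 := s.toPRes.lt_down N 0 hN'
  have hzero : ∀ c, Subsingleton (s.X (N + 1 + c)) := by
    intro c
    induction c with
    | zero =>
      haveI : Projective (s.X (0 + N)) := projective_iff_hasProjectiveDimensionLT_one.mpr h1
      haveI : Module.Projective R (s.X (0 + N)) :=
        ModuleCat.projective_of_module_projective _
      have := next_subsingleton s (0 + N)
      have e : 0 + N + 1 = N + 1 + 0 := by omega
      rwa [e] at this
    | succ c ih =>
      haveI : Module.Projective R (s.X (N + 1 + c)) := Module.Projective.of_free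
      exact next_subsingleton s (N + 1 + c)
  -- restriction to `U`
  let r := resPRes ι hproj s
  have hr0 : HasProjectiveDimensionLT (r.X 0) (N + 1 + 1) := by
    apply r.lt_up (N + 1) 0
    have e : 0 + (N + 1) = N + 1 + 0 := by omega
    rw [e]
    have hs : Subsingleton (r.X (N + 1 + 0)) := hzero 0
    exact hasPD_one_of_subsingleton _
  have hr1 : HasProjectiveDimensionLT (r.X 0) (f + 1) :=
    hf (r.X 0) (res_finite ι hfin (s.X 0)) ⟨_, hr0⟩
  have hr2 : HasProjectiveDimensionLT (r.X (0 + f)) 1 := r.lt_down f 0 hr1
  have hp : ∀ c, Module.Projective U (res ι (s.X (f + c))) := by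
    intro c
    have hr3 : HasProjectiveDimensionLT (r.X (0 + f)) (c + 1) :=
      hasProjectiveDimensionLT_of_ge _ 1 _ (by omega)
    have hr4 := r.lt_down c (0 + f) hr3
    have e : 0 + f + c = f + c := by omega
    rw [e] at hr4
    haveI : Projective (r.X (f + c)) := projective_iff_hasProjectiveDimensionLT_one.mpr hr4
    exact ModuleCat.projective_of_module_projective (r.X (f + c))
  -- reduction modulo `I`
  let t := redSyz ι I hI s f hp
  have ht0 : HasProjectiveDimensionLT (t.X 0) (N + 1 + 1) := by
    apply t.toPRes.lt_up (N + 1) 0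
    have hs : Subsingleton (s.X (N + 1 + f)) := hzero f
    have hs' : Subsingleton (t.X (0 + (N + 1))) := by
      have e : f + (0 + (N + 1)) = N + 1 + f := by omega
      change Subsingleton (red I (s.X (f + (0 + (N + 1)))))
      rw [e]
      exact (toRed_surjective I _).subsingleton
    exact hasPD_one_of_subsingleton (t.X (0 + (N + 1)))
  have ht1 : HasProjectiveDimensionLT (t.X 0) (g + 1) :=
    hg (t.X 0) (t.finX 0) ⟨_, ht0⟩
  have ht2 : HasProjectiveDimensionLT (t.X (0 + g)) 1 := t.toPRes.lt_down g 0 ht1
  haveI : Projective (t.X (0 + g)) := projective_iff_hasProjectiveDimensionLT_one.mpr ht2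
  haveI : Module.Projective (R ⧸ I) (t.X (0 + g)) := ModuleCat.projective_of_module_projective _
  have ht3 : Subsingleton (t.X (0 + g + 1)) := next_subsingleton t (0 + g)
  have hs1 : Subsingleton (s.X (f + (0 + g + 1))) :=
    subsingleton_of_red ι I hI hfin _ ht3
  have hs2 : Subsingleton (s.X (f + g + 1)) := by
    have e : f + (0 + g + 1) = f + g + 1 := by omega
    rwa [e] at hs1
  haveI hpr : Module.Projective R (s.X (f + g)) := s.projective_of_subsingleton (f + g) hs2
  have hfinal : HasProjectiveDimensionLT (s.X (0 + (f + g))) 1 := by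
    have e : 0 + (f + g) = f + g := by omega
    rw [e]
    haveI : Projective (s.X (f + g)) := ModuleCat.projective_of_categoryTheory_projective _
    infer_instance
  exact s.toPRes.lt_up (f + g) 0 hfinal

end Main

end Vale.Agent.Lib.P176
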